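import Vale.Agent.Lib.P243.Final

namespace Vale.Agent.Results.P243.FewDirections

open MeasureTheory

/-- Euclidean three-space. -/
abbrev E3 : Type := EuclideanSpace ℝ (Fin 3)

/-- An orthonormal frame `(e₁, e₂, u)` of `ℝ³`: `u` is a unit vector (the axis direction) and
`(e₁, e₂)` is an orthonormal basis of the plane `u^⊥`, which identifies `u^⊥` isometrically
with `ℝ²` by `(x, y) ↦ x e₁ + y e₂`. -/
structure Frame where
  e₁ : E3
  e₂ : E3
  u : E3
  orthonormal : Orthonormal ℝ ![e₁, e₂, u]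

/-- The orthogonal projection of `K` onto the plane `u^⊥`, in the coordinates `(e₁, e₂)`. -/
noncomputable def shadow (F : Frame) (K : Set E3) : Set (ℝ × ℝ) :=
  (fun p : E3 => ((inner ℝ F.e₁ p, inner ℝ F.e₂ p) : ℝ × ℝ)) '' K

/-- The cylinder `B + ℝ u` whose base is the subset `{x e₁ + y e₂ : (x, y) ∈ B}` of `u^⊥`. -/
def cylinder (F : Frame) (B : Set (ℝ × ℝ)) : Set E3 :=
  {p | ∃ x ∈ B, ∃ s : ℝ, p = x.1 • F.e₁ + x.2 • F.e₂ + s • F.u}

/-- Convex bodies: compact convex sets with nonempty interior. -/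
def IsConvexBody (K : Set E3) : Prop := Convex ℝ K ∧ IsCompact K ∧ (interior K).Nonempty

/-- The directionwise relative area of the family of cylinders with frames `F j` (one for each
of the `d` axis directions) and bases `B j k`, `k < n j`. -/
noncomputable def relArea (K : Set E3) {d : ℕ} (F : Fin d → Frame) (n : Fin d → ℕ)
    (B : ∀ j, Fin (n j) → Set (ℝ × ℝ)) : ENNReal :=
  ∑ j, ∑ k, volume (B j k) / volume (shadow (F j) K)

/-- A covering of a convex body by finitely many cylinders whose axes have `d` directions has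
directionwise relative area `R` with `d σ ^ 3 + 3 (1 - σ) R ≥ 1` for all `σ ∈ [0, 1]`; in
particular `R ≥ 1 / 3 + 2 / (9 √(3 d))`. -/
theorem result (K : Set E3) (hK : IsConvexBody K) (d : ℕ) (F : Fin d → Frame) (n : Fin d → ℕ)
    (B : ∀ j, Fin (n j) → Set (ℝ × ℝ)) (hB : ∀ j k, MeasurableSet (B j k))
    (hcov : K ⊆ ⋃ j, ⋃ k, cylinder (F j) (B j k)) :
    (∀ σ ∈ Set.Icc (0 : ℝ) 1,
      1 ≤ ENNReal.ofReal (d * σ ^ 3) + ENNReal.ofReal (3 * (1 - σ)) * relArea K F n B) ∧
    ENNReal.ofReal (1 / 3 + 2 / (9 * √(3 * d))) ≤ relArea K F n B :=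
  ⟨fun _ hσ => Vale.Agent.Lib.P243.few_dir_fr hK.2.1 hK.1 hK.2.2 (fun j => (F j).e₁)
      (fun j => (F j).e₂) (fun j => (F j).u) (fun j => (F j).orthonormal) n B hB hcov hσ,
    Vale.Agent.Lib.P243.few_dir_explicit_fr hK.2.1 hK.1 hK.2.2 (fun j => (F j).e₁)
      (fun j => (F j).e₂) (fun j => (F j).u) (fun j => (F j).orthonormal) n B hB hcov⟩

end Vale.Agent.Results.P243.FewDirections
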