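import Vale.Agent.Lib.P243.Final

namespace Vale.Agent.Results.P243.TwoDirections

open MeasureTheory

/-- Euclidean three-space. -/
abbrev E3 : Type := EuclideanSpace ℝ (Fin 3)

/-- An orthonormal frame `(e₁, e₂, u)` of `ℝ³`: `u` is a unit vector (the axis direction) and
`(e₁, e₂)` is an orthonormal basis of the plane `u^⊥`, which identifies `u^⊥` isometrically
with `ℝ²` by `(x, y) ↦ x e₁ + y e₂`. -/
structure Frame where
  e₁ : E3
  e₂ : E3
  u : E3
  orthonormal : Orthonormal ℝ ![e₁, e₂, u]

/-- The orthogonal projection of `K` onto the plane `u^⊥`, in the coordinates `(e₁, e₂)`. -/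
noncomputable def shadow (F : Frame) (K : Set E3) : Set (ℝ × ℝ) :=
  (fun p : E3 => ((inner ℝ F.e₁ p, inner ℝ F.e₂ p) : ℝ × ℝ)) '' K

/-- The cylinder `B + ℝ u` whose base is the subset `{x e₁ + y e₂ : (x, y) ∈ B}` of `u^⊥`. -/
def cylinder (F : Frame) (B : Set (ℝ × ℝ)) : Set E3 :=
  {p | ∃ x ∈ B, ∃ s : ℝ, p = x.1 • F.e₁ + x.2 • F.e₂ + s • F.u}

/-- The smallest area of an orthogonal projection of `K` onto a plane. -/
noncomputable def Amin (K : Set E3) : ENNReal := ⨅ F : Frame, volume (shadow F K)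

/-- Convex bodies: compact convex sets with nonempty interior. -/
def IsConvexBody (K : Set E3) : Prop := Convex ℝ K ∧ IsCompact K ∧ (interior K).Nonempty

/-- Bang's half-area inequality, in the absolute and in the stronger relative form, for every
finite covering of a convex body by cylinders with at most two axis directions. -/
theorem result (K : Set E3) (hK : IsConvexBody K) (F G : Frame) (a b : ℕ)
    (B : Fin a → Set (ℝ × ℝ)) (C : Fin b → Set (ℝ × ℝ))
    (hB : ∀ j, MeasurableSet (B j)) (hC : ∀ k, MeasurableSet (C k))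
    (hcov : K ⊆ (⋃ j, cylinder F (B j)) ∪ (⋃ k, cylinder G (C k))) :
    (1 / 2 ≤ (∑ j, volume (B j) / volume (shadow F K)) + ∑ k, volume (C k) / volume (shadow G K)) ∧
    (1 / 2 * Amin K ≤ (∑ j, volume (B j)) + ∑ k, volume (C k)) := by
  obtain ⟨hconv, hcomp, hint⟩ := hK
  have key := Vale.Agent.Lib.P243.two_dir_fr hcomp hconv hint F.orthonormal G.orthonormal
    B C hB hC hcov
  have p₁ : volume (shadow F K) ≠ 0 := (Vale.Agent.Lib.P243.fr_shadow_pos hint F.orthonormal).ne'
  have p₂ : volume (shadow G K) ≠ 0 := (Vale.Agent.Lib.P243.fr_shadow_pos hint G.orthonormal).ne'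
  have f₁ : volume (shadow F K) ≠ ⊤ :=
    (Vale.Agent.Lib.P243.fr_shadow_compact hcomp F.e₁ F.e₂).measure_lt_top.ne
  have f₂ : volume (shadow G K) ≠ ⊤ :=
    (Vale.Agent.Lib.P243.fr_shadow_compact hcomp G.e₁ G.e₂).measure_lt_top.ne
  refine ⟨?_, ?_⟩
  · have e₁ : (∑ j, volume (B j) / volume (shadow F K))
        = (∑ j, volume (B j)) / volume (shadow F K) := by
      simp only [div_eq_mul_inv, Finset.sum_mul]
    have e₂ : (∑ k, volume (C k) / volume (shadow G K))
        = (∑ k, volume (C k)) / volume (shadow G K) := by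
      simp only [div_eq_mul_inv, Finset.sum_mul]
    rw [e₁, e₂]
    exact key
  · exact Vale.Agent.Lib.P243.abs_of_rel p₁ f₁ p₂ f₂
      (iInf_le (fun F : Frame => volume (shadow F K)) F)
      (iInf_le (fun F : Frame => volume (shadow F K)) G) key

end Vale.Agent.Results.P243.TwoDirections
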